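import Vale.Agent.P210.R2.H401.CSpec
import Vale.Agent.P210.R2.H597.Cal

open scoped Manifold ContDiff Topology Bundle ENNReal NNReal
open Set Metric Filter Bundle IsManifold MeasureTheory Manifold Asymptotics

set_option maxSynthPendingDepth 3

noncomputable section

namespace Vale.Agent.P210.R2.H50

open H53 H401

/-- the metric measure data of a Riemannian manifold with a measure -/
@[reducible] def toSp (E : Type) [NormedAddCommGroup E] [NormedSpace ℝ E]
    {M : Type} [MetricSpace M] [ChartedSpace E M]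
    [RiemannianBundle (fun x : M => TangentSpace 𝓘(ℝ, E) x)] [MeasurableSpace M]
    (μ : Measure M) (K : ℝ) : Sp where
  X := M
  ms := inferInstance
  K := K
  V x r := μ.real (ball x r)
  LM p y s a := LapM E μ p y s a
  GN p p' y s σ a := GrN E μ p p' y s σ a

/-- the class of spaces coming from manifolds of dimension `n` with `Ric ≥ -K` and scalar
curvature at least `1` -/
inductive Cls (n : ℕ) : Sp → Prop
  | mk (E : Type) [NormedAddCommGroup E] [NormedSpace ℝ E]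
    [FiniteDimensional ℝ E] [MeasurableSpace E] [BorelSpace E]
    (M : Type) [MetricSpace M] [ChartedSpace E M]
    [RiemannianBundle (fun x : M => TangentSpace 𝓘(ℝ, E) x)]
    [IsManifold 𝓘(ℝ, E) ∞ M]
    [IsContMDiffRiemannianBundle 𝓘(ℝ, E) ∞ E (fun x : M => TangentSpace 𝓘(ℝ, E) x)]
    [IsRiemannianManifold 𝓘(ℝ, E) M] [MeasurableSpace M] [BorelSpace M] [ProperSpace M]
    (μ : Measure M) (K : ℝ) (h1 : 1 ≤ Module.finrank ℝ E) (hn : Module.finrank ℝ E = n)
    (hμ : IsVol E μ) (hK : 0 < K) (hR : RicGE E M (-K)) (hS : ScalGE E M 1) :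
    Cls n (toSp E μ K)

section Cal

variable {X : Type} [MetricSpace X] [MeasurableSpace X] [BorelSpace X] [ProperSpace X]
  {μ : Measure X} {G : (X → ℝ) → (X → ℝ) → X → ℝ} {D : (X → ℝ) → X → Prop}

omit [BorelSpace X] in
theorem ball_fin (h : H597.Cal μ G D) (x : X) (r : ℝ) : μ (ball x r) ≠ ⊤ :=
  ((measure_mono ball_subset_closedBall).trans_lt
    (h.fin _ (isCompact_closedBall x r))).ne

omit [BorelSpace X] in
theorem ball_pos (h : H597.Cal μ G D) (x : X) {r : ℝ} (hr : 0 < r) : 0 < μ.real (ball x r) :=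
  ENNReal.toReal_pos (h.pos _ isOpen_ball ⟨x, mem_ball_self hr⟩).ne' (ball_fin h x r)

omit [MeasurableSpace X] [BorelSpace X] [ProperSpace X] in
theorem ball_sub {x y : X} {s t : ℝ} (hst : dist x y + s ≤ t) : ball x s ⊆ ball y t :=
  ball_subset_ball' (by linarith)

omit [BorelSpace X] in
theorem ball_mono (h : H597.Cal μ G D) {x y : X} {s t : ℝ} (hst : dist x y + s ≤ t) :
    μ.real (ball x s) ≤ μ.real (ball y t) :=
  measureReal_mono (ball_sub hst) (ball_fin h y t)

theorem ball_pack (h : H597.Cal μ G D) (Z : Finset X) (y : X) (s t : ℝ)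
    (hZ : ∀ z ∈ Z, dist z y + s ≤ t) (hd : ∀ z ∈ Z, ∀ z' ∈ Z, z ≠ z' → 2 * s ≤ dist z z') :
    ∑ z ∈ Z, μ.real (ball z s) ≤ μ.real (ball y t) := by
  rw [← measureReal_biUnion_finset (fun z hz z' hz' hne => ball_disjoint_ball
    (by have := hd z hz z' hz' hne; linarith)) (fun z _ => measurableSet_ball)
    (fun z _ => ball_fin h z s)]
  exact measureReal_mono (iUnion₂_subset fun z hz => ball_sub (hZ z hz)) (ball_fin h y t)

omit [BorelSpace X] in
theorem int_gr (h : H597.Cal μ G D) (p p' y : X) (s σ : ℝ) :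
    IntegrableOn (fun q => |G (fun q => dist p q) (fun q => dist p' q) q - σ|) (ball y s) μ := by
  have l1 : LipschitzWith 1 fun q : X => dist p q := LipschitzWith.dist_right p
  have l2 : LipschitzWith 1 fun q : X => dist p' q := LipschitzWith.dist_right p'
  have hm : Measurable fun q => |G (fun q => dist p q) (fun q => dist p' q) q - σ| :=
    ((h.meas _ _ l1.continuous l2.continuous).sub_const σ).abs
  refine Measure.integrableOn_of_bounded (M := 1 + |σ|) (ball_fin h y s)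
    hm.aestronglyMeasurable (Eventually.of_forall fun q => ?_)
  rw [Real.norm_eq_abs, abs_abs]
  have := h.abs_le l1 l2 q
  simp only [NNReal.coe_one, mul_one] at this
  exact (abs_sub _ _).trans (by linarith)

end Cal

/-- the axioms hold for manifolds -/
theorem ax_toSp (hBG : H53.Stmt.BG) (hA : H53.Stmt.CALA) (hB : H53.Stmt.CALB) {n : ℕ}
    (hn2 : 2 ≤ n) {S : Sp} (hS : Cls n S) : Ax n S := by
  obtain ⟨E, M, μ, K, h1, hn, hμ, hK, hR, hS⟩ := hS
  have cal := H597.cal_of hA hB E M h1 μ hμ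
  have bg := hBG n hn2 E M h1 hn μ K hμ hK hR
  refine ⟨hK, fun x r hr => ball_pos cal x hr, fun x y s t hst => ball_mono cal hst, bg,
    fun Z y s t hZ hd => ball_pack cal Z y s t hZ hd, ?_, ?_, ?_⟩
  · intro p y z s s' a a' hs ha hl w hw h1 h0
    refine (hl w hw h1 fun q hq => h0 q ?_).trans ha
    have := dist_triangle q z y
    linarith
  · intro p p' y z s s' σ a a' hs ha hg
    refine le_trans ?_ (hg.trans ha)
    exact setIntegral_mono_set (int_gr cal p p' y s σ)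
      (Eventually.of_forall fun q => abs_nonneg _) (ball_sub hs).eventuallyLE
  · intro p p' y s σ a hg
    refine le_trans (le_of_eq ?_) hg
    refine integral_congr_ae (Eventually.of_forall fun q => ?_)
    change |_ - σ| = |_ - σ|
    rw [cal.symm]

theorem inp (hBG : H53.Stmt.BG) (hM : H53.Stmt.MASS) (hC : H53.Stmt.CONI) (hSl : H53.Stmt.SLOPE)
    (hE : H53.Stmt.END) (hA : H53.Stmt.CALA) (hB : H53.Stmt.CALB) {n : ℕ} (hn3 : 3 ≤ n) :
    Inp n (Cls n) := by
  have hn2 : 2 ≤ n := by omega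
  refine ⟨fun S hS => ax_toSp hBG hA hB hn2 hS, ?_, ?_, ?_, ?_⟩
  · obtain ⟨c, hc, H⟩ := hM n hn2
    refine ⟨c, hc, fun S hS => ?_⟩
    obtain ⟨E, M, μ, K, h1, hn, hμ, hK, hR, hS⟩ := hS
    exact H E M h1 hn μ K hμ hK hR
  · intro Ψ hΨ
    obtain ⟨c, hc, H⟩ := hC n hn2 Ψ hΨ
    refine ⟨c, hc, fun lam hl => ?_⟩
    obtain ⟨e, he, H⟩ := H lam hl
    refine ⟨e, he, fun S hS => ?_⟩
    obtain ⟨E, M, μ, K, h1, hn, hμ, hK, hR, hS⟩ := hS
    exact H E M h1 hn μ K hμ hK hR
  · intro Ψ hΨ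
    obtain ⟨c, hc, H⟩ := hSl n hn2 Ψ hΨ
    refine ⟨c, hc, fun lam hl => ?_⟩
    obtain ⟨e, he, H⟩ := H lam hl
    refine ⟨e, he, fun S hS => ?_⟩
    obtain ⟨E, M, μ, K, h1, hn, hμ, hK, hR, hS⟩ := hS
    exact H E M h1 hn μ K hμ hK hR
  · obtain ⟨e, he, L, hL, H⟩ := hE n hn3
    refine ⟨e, he, L, hL, fun S hS => ?_⟩
    obtain ⟨E, M, μ, K, h1, hn, hμ, hK, hR, hS⟩ := hS
    exact H E M h1 hn μ K hμ hK hR hS

/-- **CONTENT** from the abstract theorem -/
theorem content (hBG : H53.Stmt.BG) (hM : H53.Stmt.MASS) (hC : H53.Stmt.CONI)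
    (hSl : H53.Stmt.SLOPE) (hE : H53.Stmt.END) (hA : H53.Stmt.CALA) (hB : H53.Stmt.CALB)
    (hAbs : H401.Stmt.ABS) : H53.Stmt.CONTENT := by
  intro n hn3 ε hε
  obtain ⟨R, hR, δ, hδ, H⟩ := hAbs n (Cls n) (by omega) (inp hBG hM hC hSl hE hA hB hn3) ε hε
  refine ⟨R, hR, δ, hδ, ?_⟩
  intro E _ _ _ _ _ M _ _ _ _ _ _ _ _ _ h1 hn μ K hμ hK hRic hKδ hScal y
  exact H _ (Cls.mk E M μ K h1 hn hμ hK hRic hScal) hKδ y

end Vale.Agent.P210.R2.H50
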