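import Vale.Agent.P210.R2.H546.StepSpec

open Set Metric
open Vale.Agent.P210.R2.H53 (HCge)

noncomputable section

namespace Vale.Agent.P210.R2.H50

open H401 H546

section HC

variable {X : Type} [MetricSpace X]

theorem hc_mono {n : ℕ} {ρ a a' : ℝ} {A : Set X} (h : HCge n ρ A a) (ha : a' ≤ a) :
    HCge n ρ A a' := fun S h1 h2 => ha.trans (h S h1 h2)

theorem hc_union {n : ℕ} {ρ a b : ℝ} {A B : Set X} (hρ : 0 < ρ) (h : HCge n ρ (A ∪ B) (a + b)) :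
    HCge n ρ A a ∨ HCge n ρ B b := by
  classical
  by_contra hc
  rw [not_or] at hc
  obtain ⟨h1, h2⟩ := hc
  unfold HCge at h1 h2
  push Not at h1 h2
  obtain ⟨S, s1, s2, s3⟩ := h1
  obtain ⟨T, t1, t2, t3⟩ := h2
  have h4 := h (S ∪ T) (fun c hc => (Finset.mem_union.1 hc).elim (s1 c) (t1 c)) (by
    rintro z (hz | hz)
    · obtain ⟨c, hc, hz⟩ := mem_iUnion₂.1 (s2 hz)
      exact mem_iUnion₂.2 ⟨c, Finset.mem_union_left _ hc, hz⟩
    · obtain ⟨c, hc, hz⟩ := mem_iUnion₂.1 (t2 hz)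
      exact mem_iUnion₂.2 ⟨c, Finset.mem_union_right _ hc, hz⟩)
  have h5 : ∑ c ∈ S ∪ T, c.2 ^ (n - 1) ≤ ∑ c ∈ S, c.2 ^ (n - 1) + ∑ c ∈ T, c.2 ^ (n - 1) := by
    rw [← Finset.sum_union_inter]
    exact le_add_of_nonneg_right (Finset.sum_nonneg fun c hc =>
      pow_nonneg (hρ.le.trans (s1 c (Finset.mem_inter.1 hc).1)) _)
  linarith

end HC

theorem ar1 {M N : ℕ} {t : ℝ} : 1 / 2 ^ (M + N + 1) * (2 * t) = t / 2 ^ M / 2 ^ N := by
  rw [pow_succ (2 : ℝ) (M + N), pow_add (2 : ℝ) M N]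
  field_simp

/-- the new pole for the points outside of the bad set -/
theorem nb_pole {S : Sp} {η' η g : ℝ} {x z y : S.X} {t t₀ s : ℝ}
    (hη' : 0 < η') (e3 : η ≤ η' / 2) (hK0 : 0 < S.K) (hK : S.K * (2 * t) ^ 2 ≤ η)
    (h4g : 4 * t₀ ≤ η' * g * t) (ht2 : 2 * t₀ ≤ t) (hs0 : 0 < s) (hs2 : s ≤ 2 * t₀)
    (hxy : dist x y ≤ 2 * t) (hzy : dist z y ≤ 2 * t) (hxz : g / 2 * t ≤ dist x z)
    (hlm : S.LM x z (16 * s) (η' * S.V z s / s)) : PL S η' x z s := by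
  refine ⟨?_, ?_, hlm⟩
  · nlinarith
  · have h3 : dist x z ≤ 4 * t := by
      have := dist_triangle_right x z y
      linarith
    have h5 : s ≤ t := hs2.trans ht2
    have h6 : 0 ≤ S.K * t := mul_nonneg hK0.le (hs0.le.trans h5)
    calc S.K * s * dist x z ≤ S.K * t * (4 * t) := by gcongr
      _ = S.K * (2 * t) ^ 2 := by ring
      _ ≤ η' := by linarith

/-- the bad set has small content -/
theorem nb_bad {n : ℕ} {S : Sp} {κ η' L c₂ g t t₀ ρ : ℝ} {N M : ℕ} {x y : S.X} {P : Set S.X}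
    (hBad : ∀ (x y : S.X) (r ρ ρ₁ ρ₂ : ℝ) (P : Set S.X), 0 < ρ → ρ ≤ ρ₁ →
      ρ₁ ≤ ρ₂ → 16 * ρ₂ ≤ κ * r → S.K * r ^ 2 ≤ 1 → dist x y ≤ r →
      (∀ z ∈ P, dist z y ≤ r ∧ 2 * κ * r ≤ dist x z ∧
        L * (ρ₂ / r) ^ n * S.V z r < S.V z ρ₂ ∧
        ∃ t, ρ₁ ≤ t ∧ t ≤ ρ₂ ∧ ¬ S.LM x z (16 * t) (η' * S.V z t / t)) →
      ¬ HCge n ρ P (c₂ / 2 ^ n * r ^ (n - 1)))
    (hκg : κ ≤ g / 8) (ht : 0 < t) (htt : t₀ * 2 ^ M = t) (hρ : 0 < ρ) (hρN : ρ ≤ t₀ / 2 ^ N)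
    (m4 : 16 * t₀ ≤ κ * t) (hK : S.K * (2 * t) ^ 2 ≤ 1) (hxy : dist x y ≤ 2 * t)
    (hPy : P ⊆ closedBall y (2 * t)) (hg2 : ∀ z ∈ P, g / 2 * t ≤ dist x z)
    (hV : ∀ z ∈ P, L * ((1 / 2) ^ M) ^ n * S.V z (2 * t) < S.V z (2 * t / 2 ^ M)) :
    ¬ HCge n ρ {z ∈ P | ∃ s, t₀ / 2 ^ N ≤ s ∧ s ≤ 2 * t₀ ∧
      ¬ S.LM x z (16 * s) (η' * S.V z s / s)} (c₂ / 2 ^ n * (2 * t) ^ (n - 1)) := by
  have hM0 : (0 : ℝ) < 2 ^ M := by positivity
  have ht₀0 : 0 < t₀ := by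
    by_contra h
    have : t₀ * 2 ^ M ≤ 0 := mul_nonpos_of_nonpos_of_nonneg (not_lt.1 h) hM0.le
    linarith
  have hN1 : (1 : ℝ) ≤ 2 ^ N := one_le_pow₀ one_le_two
  refine hBad x y (2 * t) ρ (t₀ / 2 ^ N) (2 * t₀) _ hρ hρN ?_ ?_ hK hxy ?_
  · calc t₀ / 2 ^ N ≤ t₀ := div_le_self ht₀0.le hN1
      _ ≤ 2 * t₀ := by linarith
  · linarith
  · rintro z ⟨hz, s, hs1, hs2, hs3⟩
    refine ⟨hPy hz, ?_, ?_, s, hs1, hs2, hs3⟩
    · have := hg2 z hz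
      nlinarith
    · have := hV z hz
      have e1 : 2 * t / 2 ^ M = 2 * t₀ := by rw [← htt]; field_simp
      have e : 2 * t₀ / (2 * t) = (1 / 2) ^ M := by
        rw [← htt, one_div_pow]
        field_simp
      rw [e1] at this
      rw [e]
      exact this

theorem nb (hCov : Stmt.COVER) (hBad : Stmt.BAD) : H546.NB := by
  intro n C hn hI j b' η' _ hη' _ hF g hg _ c₂ hc₂
  obtain ⟨c, hc, hF⟩ := hF
  -- the constant of the bad set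
  set κ : ℝ := min 1 (g / 8) with hκ
  have hκ0 : 0 < κ := lt_min one_pos (by positivity)
  have hκ1 : κ ≤ 1 := min_le_left _ _
  have hκg : κ ≤ g / 8 := min_le_right _ _
  obtain ⟨L, hL, hBad⟩ := hBad n C hn hI κ hκ0 hκ1 η' hη' (c₂ / 2 ^ n) (by positivity)
  obtain ⟨M₀, hM₀⟩ := pow_unbounded_of_one_lt
    (max 2 (max (4 / (c * g)) (max (4 / (η' * g)) (16 / κ)))) (one_lt_two : (1 : ℝ) < 2)
  refine ⟨L, hL, M₀, fun M hM => ?_⟩
  have hMM : max 2 (max (4 / (c * g)) (max (4 / (η' * g)) (16 / κ))) < (2 : ℝ) ^ M :=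
    hM₀.trans_le (pow_le_pow_right₀ one_le_two hM)
  have m1 : (2 : ℝ) ≤ 2 ^ M := (le_max_left _ _).trans hMM.le
  have m2 : 4 / (c * g) ≤ (2 : ℝ) ^ M :=
    ((le_max_left _ _).trans (le_max_right _ _)).trans hMM.le
  have m3 : 4 / (η' * g) ≤ (2 : ℝ) ^ M :=
    ((le_max_left _ _).trans ((le_max_right _ _).trans (le_max_right _ _))).trans hMM.le
  have m4 : 16 / κ ≤ (2 : ℝ) ^ M :=
    ((le_max_right _ _).trans ((le_max_right _ _).trans (le_max_right _ _))).trans hMM.le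
  have hM0 : (0 : ℝ) < 2 ^ M := by positivity
  rw [div_le_iff₀ (by positivity)] at m2 m3 m4
  obtain ⟨N₀, -, hN₀⟩ := hCov n (2 ^ (M + 1))
  obtain ⟨N, hF⟩ := hF N₀ (c₂ / 2) (by positivity)
  obtain ⟨η₁, hη₁, hF⟩ := hF (1 / 2 ^ (M + N + 1)) (by positivity)
  refine ⟨b' + M + N, min η₁ (min 1 (η' / 2)), by positivity, ?_⟩
  intro S hS y x t p P b hb hbt hD hxy hPy hg2 hsl hV hHC
  have ax := hI.ax S hS
  have e1 : min η₁ (min 1 (η' / 2)) ≤ η₁ := min_le_left _ _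
  have e2 : min η₁ (min 1 (η' / 2)) ≤ 1 := (min_le_right _ _).trans (min_le_left _ _)
  have e3 : min η₁ (min 1 (η' / 2)) ≤ η' / 2 := (min_le_right _ _).trans (min_le_right _ _)
  obtain ⟨-, -, hP, hG⟩ := data_mono ax hD e1
  obtain ⟨ht, hK, -, -⟩ := hD
  have hK0 := ax.Kpos
  generalize min η₁ (min 1 (η' / 2)) = η at *
  -- scales
  set ρ : ℝ := t / 2 ^ b with hρd
  have hρ : 0 < ρ := by positivity
  have hρt : ρ ≤ t / 2 ^ (b' + M + N) := by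
    rw [hρd]
    gcongr
    exact one_le_two
  have hbt' : (2 : ℝ) ^ (b' + M + N) ≤ t := (pow_le_pow_right₀ one_le_two hb).trans hbt
  clear_value ρ
  obtain ⟨t₀, htt⟩ : ∃ t₀ : ℝ, t₀ * 2 ^ M = t := ⟨t / 2 ^ M, by field_simp⟩
  have ht₀ : t₀ = t / 2 ^ M := by rw [← htt]; field_simp
  have ht₀0 : 0 < t₀ := by rw [ht₀]; positivity
  have h4g : 4 * t₀ ≤ η' * g * t := by
    rw [← htt]
    nlinarith
  have h4c : 4 * t₀ ≤ c * g * t := by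
    rw [← htt]
    nlinarith
  have h4k : 16 * t₀ ≤ κ * t := by
    rw [← htt]
    nlinarith
  have h2t : 2 * t₀ ≤ t := by
    rw [← htt]
    nlinarith
  have hbN : 2 ^ b' ≤ t₀ / 2 ^ N := by
    rw [ht₀, div_div, le_div_iff₀ (by positivity), ← mul_assoc, ← pow_add, ← pow_add]
    exact hbt'
  have hρN : ρ ≤ t₀ / 2 ^ (N + b') := by
    rw [ht₀, div_div, ← pow_add, show M + (N + b') = b' + M + N by ring]
    exact hρt
  have hρN' : ρ ≤ t₀ / 2 ^ N := by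
    refine hρN.trans ?_
    gcongr
    · exact one_le_two
    · omega
  have hN1 : (1 : ℝ) ≤ 2 ^ N := one_le_pow₀ one_le_two
  have hbad := nb_bad (hBad S hS) hκg ht htt hρ hρN' h4k (hK.trans e2) hxy hPy hg2 hV
  generalize hQ : {z ∈ P | ∃ s, t₀ / 2 ^ N ≤ s ∧ s ≤ 2 * t₀ ∧
      ¬ S.LM x z (16 * s) (η' * S.V z s / s)} = Q at hbad
  have hQP : Q ⊆ P := by
    rw [← hQ]
    exact fun z hz => hz.1
  have hsum : c₂ * t ^ (n - 1) = c₂ / 2 ^ n * (2 * t) ^ (n - 1) + c₂ / 2 * t ^ (n - 1) := by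
    obtain ⟨m, rfl⟩ : ∃ m, n = m + 1 := ⟨n - 1, by omega⟩
    simp only [Nat.add_sub_cancel]
    rw [mul_pow, pow_succ (2 : ℝ) m]
    field_simp
    ring
  have hPQ : P = Q ∪ (P \ Q) := (union_sdiff_cancel hQP).symm
  rw [hPQ, hsum] at hHC
  rcases hc_union hρ hHC with h | h
  · exact hbad h
  · refine hF S hS y x t t₀ ρ p (P \ Q) ht (hK.trans e1) hP hG hxy (sdiff_subset.trans hPy) h2t
      ?_ hbN ?_ (fun z hz => hsl z hz.1) ?_ ?_ hρ hρN (hc_mono h ?_)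
    · rw [ht₀]
      exact ar1.le
    · intro z hz
      have h1 := hg2 z hz.1
      nlinarith
    · intro z hz s hs1 hs2
      have hs0 : 0 < s := lt_of_lt_of_le (by positivity) hs1
      refine nb_pole hη' e3 hK0 hK h4g h2t hs0 hs2 hxy (hPy hz.1) (hg2 z hz.1) ?_
      by_contra hlm
      exact hz.2 (hQ ▸ ⟨hz.1, s, hs1, hs2, hlm⟩)
    · exact (hN₀ S ax y t₀ (2 * t) ht₀0 (by linarith)
        (by rw [← htt, pow_succ (2 : ℝ) M]; apply le_of_eq; ring) (hK.trans e2)).2 (P \ Q)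
        (sdiff_subset.trans hPy)
    · have : t₀ ^ (n - 1) ≤ t ^ (n - 1) := by
        gcongr
        linarith
      exact mul_le_mul_of_nonneg_left this (by positivity)

end Vale.Agent.P210.R2.H50
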